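import Vale.Agent.P141.Criterion
import Vale.Agent.P141.EveryR
import Vale.Agent.P141.Explicit

namespace Vale.Agent.Results.P141.Combined

open Vale.Agent.P141

/-- Unboundedness of the trilinear Hilbert transform: (1) the general tensor power criterion,
(2) an explicit region of Holder tuples, (3) every target exponent below one half is hit. -/
theorem result :
    (∀ (P : Finset (ℤ × ℤ)) (b : ℕ), 2 ≤ b →
      (∀ a ∈ P, ∀ a' ∈ P, (b : ℤ) ∣ a.1 - a'.1 → a = a') →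
      ∀ p₁ p₂ p₃ r : ℝ, 0 < p₁ → 0 < p₂ → 0 < p₃ → 0 < r →
      (b : ℝ) * ((P.image fun w => w.1 - 1 * w.2).card : ℝ) ^ (1 / p₁) *
          ((P.image fun w => w.1 - 2 * w.2).card : ℝ) ^ (1 / p₂) *
          ((P.image fun w => w.1 - 3 * w.2).card : ℝ) ^ (1 / p₃) < (P.card : ℝ) ^ (1 / r) →
      ¬ BoundedAt p₁ p₂ p₃ r) ∧
    (∀ p₁ p₂ p₃ r : ℝ, 1 < p₁ → 1 < p₂ → 1 < p₃ → 0 < r →
      1 / r = 1 / p₁ + 1 / p₂ + 1 / p₃ →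
      (r ≤ 7 / 16 ∨
        (1 - 1 / p₁) * Real.log 4 + (1 - 1 / p₂) * Real.log 2 < (1 / p₃) * Real.log (8 / 5) ∨
        (1 - 1 / p₁) * Real.log 3 + (1 - 1 / p₃) * Real.log 2 < (1 / p₂) * Real.log (3 / 2) ∨
        (1 - 1 / p₂) * Real.log 2 + (1 - 1 / p₃) * Real.log 4 < (1 / p₁) * Real.log (8 / 5)) →
      ¬ BoundedAt p₁ p₂ p₃ r) ∧
    (∀ r : ℝ, 1 / 3 < r → r < 1 / 2 →
      ∃ p₁ p₂ p₃ : ℝ, 1 < p₁ ∧ 1 < p₂ ∧ 1 < p₃ ∧ 1 / r = 1 / p₁ + 1 / p₂ + 1 / p₃ ∧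
        ¬ BoundedAt p₁ p₂ p₃ r) := by
  refine ⟨fun P b hb hinj _ _ _ _ h₁ h₂ h₃ hr hg => criterion P b hb hinj h₁ h₂ h₃ hr hg, ?_,
    fun _ h1 h2 => every_r h1 h2⟩
  intro p₁ p₂ p₃ r h₁ h₂ h₃ hr hH hc
  rcases hc with hc | hc | hc | hc
  · exact unbounded_small_r h₁ h₂ h₃ hr hH hc
  · exact unbounded_corner3 h₁ h₂ h₃ hr hH hc
  · exact unbounded_corner2 h₁ h₂ h₃ hr hH hc
  · exact unbounded_corner1 h₁ h₂ h₃ hr hH hc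

end Vale.Agent.Results.P141.Combined
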