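import Vale.Agent.P141.Criterion

namespace Vale.Agent.Results.P141.Criterion

open Vale.Agent.P141

/-- Tensor power criterion for unboundedness of the trilinear Hilbert transform. -/
theorem result : ∀ (P : Finset (ℤ × ℤ)) (b : ℕ), 2 ≤ b →
    (∀ a ∈ P, ∀ a' ∈ P, (b : ℤ) ∣ a.1 - a'.1 → a = a') →
    ∀ p₁ p₂ p₃ r : ℝ, 0 < p₁ → 0 < p₂ → 0 < p₃ → 0 < r →
    (b : ℝ) * ((P.image fun w => w.1 - 1 * w.2).card : ℝ) ^ (1 / p₁) *
        ((P.image fun w => w.1 - 2 * w.2).card : ℝ) ^ (1 / p₂) *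
        ((P.image fun w => w.1 - 3 * w.2).card : ℝ) ^ (1 / p₃) < (P.card : ℝ) ^ (1 / r) →
    ¬ BoundedAt p₁ p₂ p₃ r :=
  fun P b hb hinj _ _ _ _ h₁ h₂ h₃ hr hg => criterion P b hb hinj h₁ h₂ h₃ hr hg

end Vale.Agent.Results.P141.Criterion
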