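import Vale.Agent.P141.EveryR

namespace Vale.Agent.Results.P141.EveryR

open Vale.Agent.P141

/-- For every target exponent `r` below `1/2` there is a Holder tuple with that `r` at which the
trilinear Hilbert transform is unbounded. -/
theorem result : ∀ r : ℝ, 1 / 3 < r → r < 1 / 2 →
    ∃ p₁ p₂ p₃ : ℝ, 1 < p₁ ∧ 1 < p₂ ∧ 1 < p₃ ∧ 1 / r = 1 / p₁ + 1 / p₂ + 1 / p₃ ∧
      ¬ BoundedAt p₁ p₂ p₃ r :=
  fun _ h1 h2 => every_r h1 h2

end Vale.Agent.Results.P141.EveryR
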