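import Vale.Agent.P141.Explicit

namespace Vale.Agent.Results.P141.Region

open Vale.Agent.P141

/-- An explicit region of Holder tuples at which the trilinear Hilbert transform is unbounded. -/
theorem result : ∀ p₁ p₂ p₃ r : ℝ, 1 < p₁ → 1 < p₂ → 1 < p₃ → 0 < r →
    1 / r = 1 / p₁ + 1 / p₂ + 1 / p₃ →
    (r ≤ 7 / 16 ∨
      (1 - 1 / p₁) * Real.log 4 + (1 - 1 / p₂) * Real.log 2 < (1 / p₃) * Real.log (8 / 5) ∨
      (1 - 1 / p₁) * Real.log 3 + (1 - 1 / p₃) * Real.log 2 < (1 / p₂) * Real.log (3 / 2) ∨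
      (1 - 1 / p₂) * Real.log 2 + (1 - 1 / p₃) * Real.log 4 < (1 / p₁) * Real.log (8 / 5)) →
    ¬ BoundedAt p₁ p₂ p₃ r := by
  intro p₁ p₂ p₃ r h₁ h₂ h₃ hr hH hc
  rcases hc with hc | hc | hc | hc
  · exact unbounded_small_r h₁ h₂ h₃ hr hH hc
  · exact unbounded_corner3 h₁ h₂ h₃ hr hH hc
  · exact unbounded_corner2 h₁ h₂ h₃ hr hH hc
  · exact unbounded_corner1 h₁ h₂ h₃ hr hH hc

end Vale.Agent.Results.P141.Region
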